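import Vale.Agent.P305.R2.H52.Torus

/-!
P305: convex sets whose differences are not crossed by segments.
-/

set_option autoImplicit false

namespace Vale.Agent.P305.H52

/-- Two convex sets such that no segment with ends in `a \ b` meets a segment with ends in
`b \ a` do not cross. -/
theorem nonCross_of_convex {a b : Set ℂ} (ha : Convex ℝ a) (hb : Convex ℝ b)
    (h : ∀ x ∈ a \ b, ∀ y ∈ a \ b, ∀ z ∈ b \ a, ∀ w ∈ b \ a,
      Disjoint (segment ℝ x y) (segment ℝ z w)) : NonCross a b := by
  intro x hx y hy z hz w hw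
  obtain ⟨p, hp⟩ := JoinedIn.of_segment_subset (Set.Subset.refl (segment ℝ x y))
  obtain ⟨r, hr⟩ := JoinedIn.of_segment_subset (Set.Subset.refl (segment ℝ z w))
  refine ⟨p, r, fun t => ha.segment_subset hx.1 hy.1 (hp t),
    fun t => hb.segment_subset hz.1 hw.1 (hr t), fun s t e => ?_⟩
  have h1 := hr t
  rw [← e] at h1
  exact Set.disjoint_left.1 (h x hx y hy z hz w hw) (hp s) h1

end Vale.Agent.P305.H52
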