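import Vale.Agent.P305.R2.H52.Class
import Vale.Agent.P305.H529.Ball.Arc
import Mathlib.Analysis.Complex.Convex

/-!
P305: circular arcs as subsets of the plane (for the instance `IsCoArc → IsCoPseudo`).
-/

set_option autoImplicit false

open Complex Set

namespace Vale.Agent.P305.H752

open Vale.Agent.P305.H52 (Jo HoleFree Tame IsCoPseudo)

/-- The point of the unit circle with angle `2 π x`. -/
noncomputable def cis (x : ℝ) : ℂ := Complex.exp ((2 * Real.pi * x : ℝ) * I)

lemma continuous_cis : Continuous cis := by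
  unfold cis
  fun_prop

lemma norm_cis (x : ℝ) : ‖cis x‖ = 1 := by
  rw [cis, Complex.norm_exp_ofReal_mul_I]

lemma cis_eq_iff (x y : ℝ) : cis x = cis y ↔ ∃ k : ℤ, x = y + k := by
  rw [cis, cis, Complex.exp_eq_exp_iff_exists_int]
  have hp : (2 * Real.pi : ℂ) ≠ 0 := by
    simp [Real.pi_ne_zero]
  constructor
  · rintro ⟨k, hk⟩
    refine ⟨k, ?_⟩
    have h1 : (2 * Real.pi : ℂ) * I * ((x : ℂ) - (y + k)) = 0 := by
      push_cast at hk
      linear_combination hk
    have h2 : ((x : ℂ) - (y + k)) = 0 := by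
      rcases mul_eq_zero.1 h1 with h | h
      · exact absurd h (mul_ne_zero hp I_ne_zero)
      · exact h
    have h3 : (x : ℂ) = ((y + k : ℝ) : ℂ) := by
      push_cast
      linear_combination h2
    exact_mod_cast h3
  · rintro ⟨k, hk⟩
    refine ⟨k, ?_⟩
    rw [hk]
    push_cast
    ring

/-- A closed arc of the unit circle. -/
def arc (l u : ℝ) : Set ℂ := cis '' Icc l u

lemma jo_cis {s : Set ℝ} (hs : Convex ℝ s) : Jo (cis '' s) := by
  rintro _ ⟨x, hx, rfl⟩ _ ⟨y, hy, rfl⟩
  exact (JoinedIn.of_segment_subset (hs.segment_subset hx hy)).map continuous_cis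

lemma jo_arc (l u : ℝ) : Jo (arc l u) := jo_cis (convex_Icc l u)

lemma arc_nonempty {l u : ℝ} (h : l ≤ u) : (arc l u).Nonempty :=
  ⟨cis l, l, ⟨le_rfl, h⟩, rfl⟩

/-- Points outside the closed unit disc can be joined there. -/
lemma joined_outside {ρ ρ' θ θ' : ℝ} (h : 0 < ρ) (h' : 0 < ρ') :
    JoinedIn {z : ℂ | 1 < ‖z‖} (exp (ρ + θ * I)) (exp (ρ' + θ' * I)) := by
  have h1 : JoinedIn {w : ℂ | 0 < w.re} (ρ + θ * I : ℂ) (ρ' + θ' * I : ℂ) := by
    apply JoinedIn.of_segment_subset
    apply (convex_halfSpace_re_gt 0).segment_subset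
    · simp [h]
    · simp [h']
  refine (h1.map Complex.continuous_exp).mono ?_
  rintro _ ⟨w, hw, rfl⟩
  rw [mem_ofPred_eq, Complex.norm_exp]
  exact Real.one_lt_exp_iff.2 hw

lemma arc_subset_sphere (l u : ℝ) {z : ℂ} (hz : z ∈ arc l u) : ‖z‖ = 1 := by
  obtain ⟨x, -, rfl⟩ := hz
  exact norm_cis x

/-- The complement of a proper arc is joined. -/
lemma jo_compl_arc {l u : ℝ} (h : u - l < 1) : Jo (arc l u)ᶜ := by
  set γ : ℝ := (u + l + 1) / 2 with hγ
  have hg : cis γ ∉ arc l u := by
    rintro ⟨x, hx, hxe⟩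
    obtain ⟨k, hk⟩ := (cis_eq_iff x γ).1 hxe
    have h1 := hx.1
    have h2 := hx.2
    have h3 : (k : ℝ) < 0 := by rw [hγ] at hk; linarith
    have h4 : (-1 : ℝ) < k := by rw [hγ] at hk; linarith
    have h5 : k < 0 := by exact_mod_cast h3
    have h6 : -1 < k := by exact_mod_cast h4
    omega
  have key : ∀ z ∉ arc l u, JoinedIn (arc l u)ᶜ z 0 := by
    have hseg : ∀ z : ℂ, ‖z‖ = 1 ∨ ‖z‖ ≤ 1 → z ∉ arc l u → JoinedIn (arc l u)ᶜ z 0 := by
      intro z hz1 hz
      have hz1 : ‖z‖ ≤ 1 := hz1.elim (fun h => h.le) id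
      apply JoinedIn.of_segment_subset
      rintro w ⟨a, b, ha, hb, hab, rfl⟩ hw
      have h1 := arc_subset_sphere l u hw
      rw [smul_zero, add_zero, norm_smul, Real.norm_of_nonneg ha] at h1
      have h2 : a = 1 := by nlinarith [norm_nonneg z]
      rw [h2, one_smul, smul_zero, add_zero] at hw
      exact hz hw
    intro z hz
    rcases le_or_gt ‖z‖ 1 with h1 | h1
    · exact hseg z (Or.inr h1) hz
    · -- outside
      have hz0 : z ≠ 0 := by
        rintro rfl
        rw [norm_zero] at h1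
        linarith
      have hze : z = exp ((Real.log ‖z‖ : ℝ) + (arg z : ℝ) * I) := by
        rw [Complex.exp_add, ← Complex.ofReal_exp, Real.exp_log (norm_pos_iff.2 hz0),
          Complex.norm_mul_exp_arg_mul_I]
      have h2 : JoinedIn {z : ℂ | 1 < ‖z‖} z (exp ((Real.log 2 : ℝ) + (2 * Real.pi * γ : ℝ) * I)) := by
        conv => enter [2]; rw [hze]
        exact joined_outside (Real.log_pos h1) (Real.log_pos (by norm_num))
      have h3 : exp ((Real.log 2 : ℝ) + (2 * Real.pi * γ : ℝ) * I) = 2 * cis γ := by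
        rw [Complex.exp_add, ← Complex.ofReal_exp, Real.exp_log (by norm_num), cis]
        norm_num
      rw [h3] at h2
      have h4 : JoinedIn (arc l u)ᶜ z (2 * cis γ) := by
        refine h2.mono ?_
        intro w hw hwa
        rw [mem_ofPred_eq, arc_subset_sphere l u hwa] at hw
        exact lt_irrefl _ hw
      refine h4.trans ?_
      apply JoinedIn.of_segment_subset
      rintro w ⟨a, b, ha, hb, hab, rfl⟩ hw
      have h5 := arc_subset_sphere l u hw
      rw [smul_zero, add_zero, norm_smul, Real.norm_of_nonneg ha, norm_mul, norm_cis] at h5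
      have h6 : a = 1 / 2 := by
        have : ‖(2 : ℂ)‖ = 2 := by norm_num
        rw [this] at h5
        linarith
      apply hg
      have h7 : a • (2 * cis γ) + b • (0 : ℂ) = cis γ := by
        rw [smul_zero, add_zero, h6, Complex.real_smul]
        push_cast
        ring
      rw [h7] at hw
      exact hw
  intro z hz w hw
  exact (key z hz).trans (key w hw).symm

/-- The difference of two arcs, the second one being later and ending later. -/
lemma jo_diff {l u l' u' : ℝ} (_h1 : l ≤ l') (h2 : l' ≤ u) (h3 : u ≤ u') (h4 : u' - l' < 1)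
    (h0 : u - l < 1) : Jo (arc l u \ arc l' u') := by
  have he : arc l u \ arc l' u' = cis '' (Icc l u ∩ Ioo (u' - 1) l') := by
    ext z
    constructor
    · rintro ⟨⟨x, hx, rfl⟩, hn⟩
      have hn' : ∀ k : ℤ, ¬ (l' ≤ x + k ∧ x + k ≤ u') := by
        intro k hk
        exact hn ⟨x + k, hk, (cis_eq_iff _ _).2 ⟨k, rfl⟩⟩
      refine ⟨x, ⟨hx, ?_, ?_⟩, rfl⟩
      · by_contra hc
        rw [not_lt] at hc
        have h5 := hn' 1
        push_cast at h5
        apply h5
        exact ⟨by linarith [hx.1], by linarith⟩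
      · by_contra hc
        rw [not_lt] at hc
        apply hn' 0
        push_cast
        exact ⟨by linarith, by linarith [hx.2]⟩
    · rintro ⟨x, ⟨hx, hx'⟩, rfl⟩
      refine ⟨⟨x, hx, rfl⟩, ?_⟩
      rintro ⟨y, hy, hye⟩
      obtain ⟨k, hk⟩ := (cis_eq_iff y x).1 hye
      have h5 : (0 : ℝ) < k := by linarith [hy.1, hx'.2]
      have h6 : (k : ℝ) < 1 := by linarith [hy.2, hx'.1]
      have h7 : 0 < k := by exact_mod_cast h5
      have h8 : k < 1 := by exact_mod_cast h6
      omega
  rw [he]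
  exact jo_cis ((convex_Icc l u).inter (convex_Ioo _ _))

lemma arc_sub {l u l' u' : ℝ} (h : l' ≤ l) (h' : u ≤ u') : arc l u ⊆ arc l' u' :=
  image_mono (Icc_subset_Icc h h')

lemma arc_shift (l u : ℝ) (k : ℤ) : arc (l + k) (u + k) = arc l u := by
  ext z
  constructor
  · rintro ⟨x, hx, rfl⟩
    refine ⟨x - k, ⟨by linarith [hx.1], by linarith [hx.2]⟩, (cis_eq_iff _ _).2 ⟨-k, ?_⟩⟩
    push_cast
    ring
  · rintro ⟨x, hx, rfl⟩
    refine ⟨x + k, ⟨by linarith [hx.1], by linarith [hx.2]⟩, (cis_eq_iff _ _).2 ⟨k, rfl⟩⟩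

/-- Two proper arcs which meet: one of the differences is joined (or empty). -/
lemma arc_pair {l u l' u' : ℝ} (h : u - l < 1) (h' : u' - l' < 1)
    (hm : ∃ k : ℤ, l ≤ u' + k ∧ l' + k ≤ u) :
    Jo (arc l u \ arc l' u') ∨ Jo (arc l' u' \ arc l u) := by
  obtain ⟨k, h1, h2⟩ := hm
  rw [← arc_shift l' u' k]
  rcases le_total l (l' + k) with h3 | h3
  · rcases le_total u (u' + k) with h4 | h4
    · exact Or.inl (jo_diff h3 h2 h4 (by linarith) h)
    · right
      rw [diff_eq_empty.2 (arc_sub h3 h4)]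
      exact fun x hx => absurd hx (notMem_empty x)
  · rcases le_total (u' + k) u with h4 | h4
    · exact Or.inr (jo_diff h3 h1 h4 h (by linarith))
    · left
      rw [diff_eq_empty.2 (arc_sub h3 h4)]
      exact fun x hx => absurd hx (notMem_empty x)

/-- The disjointness of two arcs in the plane and on the circle `ℝ / ℤ`. -/
lemma disjoint_arc_iff {l u l' u' : ℝ} (h : l ≤ u) (h' : l' ≤ u') :
    Disjoint (arc l u) (arc l' u') ↔
      Disjoint ((fun x : ℝ => (x : AddCircle (1 : ℝ))) '' Icc l u)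
        ((fun x : ℝ => (x : AddCircle (1 : ℝ))) '' Icc l' u') := by
  rw [← not_iff_not, H529.arc_meet h h', not_disjoint_iff]
  constructor
  · rintro ⟨z, ⟨x, hx, rfl⟩, ⟨y, hy, hye⟩⟩
    obtain ⟨k, hk⟩ := (cis_eq_iff x y).1 hye.symm
    exact ⟨k, by linarith [hx.1, hy.2], by linarith [hx.2, hy.1]⟩
  · rintro ⟨k, h1, h2⟩
    refine ⟨cis (max l (l' + k)), ⟨_, ⟨le_max_left _ _, max_le h h2⟩, rfl⟩,
      ⟨max l (l' + k) - k, ⟨by linarith [le_max_right l (l' + k)], ?_⟩, ?_⟩⟩
    · have := max_le h1 (add_le_add_left h' (k : ℝ))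
      linarith
    · rw [cis_eq_iff]
      exact ⟨-k, by push_cast; ring⟩

/-- The sets of the plane used for a circular-arc graph. -/
noncomputable def pset (l u : ℝ) : Set ℂ := if u - l < 1 then arc l u else univ

lemma jo_pset (l u : ℝ) : Jo (pset l u) := by
  unfold pset
  split_ifs with h
  · exact jo_arc l u
  · exact fun x _ y _ => JoinedIn.of_segment_subset (subset_univ _)

lemma jo_compl_pset (l u : ℝ) : Jo (pset l u)ᶜ := by
  unfold pset
  split_ifs with h
  · exact jo_compl_arc h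
  · rw [compl_univ]
    exact fun x hx => absurd hx (notMem_empty x)

lemma pset_pair {l u l' u' : ℝ} (h : l ≤ u) (h' : l' ≤ u')
    (hm : (pset l u ∩ pset l' u').Nonempty) :
    Jo (pset l u \ pset l' u') ∨ Jo (pset l' u' \ pset l u) := by
  unfold pset at hm ⊢
  by_cases h1 : u - l < 1
  · by_cases h2 : u' - l' < 1
    · rw [if_pos h1, if_pos h2] at hm ⊢
      refine arc_pair h1 h2 ?_
      rw [← H529.arc_meet h h', ← disjoint_arc_iff h h', not_disjoint_iff_nonempty_inter]
      exact hm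
    · left
      rw [if_neg h2, diff_univ]
      exact fun x hx => absurd hx (notMem_empty x)
  · right
    rw [if_neg h1, diff_univ]
    exact fun x hx => absurd hx (notMem_empty x)

lemma disjoint_pset_iff {l u l' u' : ℝ} (h : l ≤ u) (h' : l' ≤ u') :
    Disjoint (pset l u) (pset l' u') ↔
      Disjoint ((fun x : ℝ => (x : AddCircle (1 : ℝ))) '' Icc l u)
        ((fun x : ℝ => (x : AddCircle (1 : ℝ))) '' Icc l' u') := by
  have hne : ∀ {l u : ℝ}, l ≤ u → (pset l u).Nonempty := by
    intro l u h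
    unfold pset
    split_ifs
    · exact arc_nonempty h
    · exact univ_nonempty
  have hlong : ∀ {l u l' u' : ℝ}, l ≤ u → l' ≤ u' → ¬ u - l < 1 →
      ∃ k : ℤ, l ≤ u' + k ∧ l' + k ≤ u := by
    intro l u l' u' h h' hl
    rw [not_lt] at hl
    refine ⟨⌊u - l'⌋, ?_, ?_⟩
    · have := Int.lt_floor_add_one (u - l')
      linarith
    · have := Int.floor_le (u - l')
      linarith
  by_cases h1 : u - l < 1
  · by_cases h2 : u' - l' < 1
    · rw [pset, pset, if_pos h1, if_pos h2]
      exact disjoint_arc_iff h h'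
    · rw [← not_iff_not, H529.arc_meet h h']
      obtain ⟨k, h3, h4⟩ := hlong h' h h2
      refine ⟨fun _ => ⟨-k, by push_cast; linarith, by push_cast; linarith⟩, fun _ hd => ?_⟩
      rw [pset, pset, if_neg h2, disjoint_univ] at hd
      have h5 := hne h
      rw [pset, hd] at h5
      exact not_nonempty_empty h5
  · rw [← not_iff_not, H529.arc_meet h h']
    refine ⟨fun _ => hlong h h' h1, fun _ hd => ?_⟩
    rw [pset, pset, if_neg h1, univ_disjoint] at hd
    have h5 := hne h'
    rw [pset, hd] at h5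
    exact not_nonempty_empty h5

/-- Circular-arc graphs: the family in the plane. -/
theorem coArc_family {V : Type} (G : SimpleGraph V) (hG : H529.IsCoArc G) :
    ∃ S : V → Set ℂ, (∀ v, Jo (S v)) ∧ (∀ v, Jo (S v)ᶜ) ∧
      (∀ u v, u ≠ v → (S u ∩ S v).Nonempty → Jo (S u \ S v) ∨ Jo (S v \ S u)) ∧
      ∀ u v, u ≠ v → (G.Adj u v ↔ Disjoint (S u) (S v)) := by
  obtain ⟨l, u, hlu, hadj⟩ := hG
  refine ⟨fun v => pset (l v) (u v), fun v => jo_pset _ _, fun v => jo_compl_pset _ _,
    fun a b _ hm => pset_pair (hlu a) (hlu b) hm, fun a b hab => ?_⟩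
  rw [hadj a b hab, disjoint_pset_iff (hlu a) (hlu b)]

/-- Complements of circular-arc graphs are disjointness graphs of pseudo-discs. -/
theorem isCoPseudo_of_isCoArc {V : Type} (G : SimpleGraph V) (hG : H529.IsCoArc G) :
    IsCoPseudo G := by
  obtain ⟨S, h1, h2, h3, h4⟩ := coArc_family G hG
  refine ⟨S, h1, fun u v huv hn => ?_, h4⟩
  rcases h3 u v huv hn with h | h
  · exact Or.inr (Or.inl ⟨Or.inl (h2 u), h⟩)
  · exact Or.inr (Or.inr (Or.inl ⟨Or.inl (h2 v), h⟩))

end Vale.Agent.P305.H752
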