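import Mathlib.Analysis.Complex.Basic
import Mathlib.Analysis.Convex.Segment

/-! Convex sets of the plane: definitions. -/

set_option autoImplicit false

namespace Vale.Agent.P305.H752

/-- `b` is a homothetic copy of `a`: the image of `a` under `z ↦ c + l z` with `l > 0`. -/
def Homothetic (a b : Set ℂ) : Prop :=
  ∃ (l : ℝ) (c : ℂ), 0 < l ∧ b = (fun z => c + l • z) '' a

/-- `s` is a closed or an open half-plane (or the plane, or empty). -/
def IsHalfPlane (s : Set ℂ) : Prop :=
  ∃ (f : ℂ →ₗ[ℝ] ℝ) (c : ℝ), s = {z | c ≤ f z} ∨ s = {z | c < f z}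

/-- no segment with ends in `a \ b` meets a segment with ends in `b \ a` -/
def SegNonCross (a b : Set ℂ) : Prop :=
  ∀ x ∈ a \ b, ∀ y ∈ a \ b, ∀ z ∈ b \ a, ∀ w ∈ b \ a, Disjoint (segment ℝ x y) (segment ℝ z w)

end Vale.Agent.P305.H752
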