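import Vale.Agent.P305.R2.H52.Class
import Vale.Agent.P305.R2.H752.NonC
import Vale.Agent.P305.R2.H752.HomDefs
import Mathlib.Analysis.Complex.Convex
import Mathlib.Analysis.Convex.Contractible

/-!
P305: half-planes and homothetic copies of convex sets are pseudo-discs.
-/

set_option autoImplicit false

open Set
open scoped Pointwise

namespace Vale.Agent.P305.H752

open Vale.Agent.P305.H52 (Jo HoleFree Tame IsCoPseudo NonCross nonCross_of_convex)

lemma jo_of_convex {s : Set ℂ} (hs : Convex ℝ s) : Jo s := fun _ hx _ hy =>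
  JoinedIn.of_segment_subset (hs.segment_subset hx hy)

/-- membership of a point given by a convex combination of three points -/
lemma mem_of_comb {a : Set ℂ} (ha : Convex ℝ a) {x y z w : ℂ} (hx : x ∈ a) (hy : y ∈ a)
    (hz : z ∈ a) {r s : ℝ} (hr : 0 ≤ r) (hs : 0 ≤ s) (hrs : r + s ≤ 1)
    (e : w = x + r • (y - x) + s • (z - x)) : w ∈ a := by
  have h1 : (1 - r - s) • x + r • y + s • z ∈ a := by
    rcases eq_or_lt_of_le hrs with h | h
    · have : (1 - r - s) • x + r • y + s • z = r • y + s • z := by
        rw [show (1 - r - s) = 0 by linarith]; simp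
      rw [this]
      exact ha hy hz hr hs h
    · have h2 : 0 < 1 - s := by
        by_contra hc
        have : s = 1 ∨ 1 < s := by
          rcases lt_or_eq_of_le (not_lt.1 hc) with h' | h'
          · right; linarith
          · left; linarith
        rcases this with h' | h' <;> linarith
      have h3 : ((1 - r - s) / (1 - s)) • x + (r / (1 - s)) • y ∈ a := by
        apply ha hx hy
        · exact div_nonneg (by linarith) h2.le
        · exact div_nonneg hr h2.le
        · field_simp
          ring
      have h4 := ha h3 hz h2.le hs (by ring)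
      have h5 : (1 - s) • (((1 - r - s) / (1 - s)) • x + (r / (1 - s)) • y) + s • z
          = (1 - r - s) • x + r • y + s • z := by
        rw [smul_add, smul_smul, smul_smul, mul_div_cancel₀ _ h2.ne', mul_div_cancel₀ _ h2.ne']
      rwa [h5] at h4
  have h6 : w = (1 - r - s) • x + r • y + s • z := by
    rw [e]
    module
  rw [h6]; exact h1

/-- The key fact. `a` is the image of `b` under `v ↦ m + C + l (v - m)`, and `m` is in both. -/
lemma core {a b : Set ℂ} (ha : Convex ℝ a) (hb : Convex ℝ b) {m P Q C : ℂ} {l g d : ℝ}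
    (hl : 0 < l) (hg : 0 ≤ g) (hd : 0 ≤ d)
    (hab : ∀ v, v ∈ b ↔ m + C + l • (v - m) ∈ a)
    (hma : m ∈ a) (hmb : m ∈ b) (hP : m + P ∈ a) (hQ : m + Q ∈ b)
    (hC : C = -(g • P) + d • Q) : m + Q ∈ a ∨ m + P ∈ b := by
  have hz : m + C + l • Q ∈ a := by
    have := (hab (m + Q)).1 hQ
    simpa using this
  have hy : m + l⁻¹ • (P - C) ∈ b := by
    rw [hab]
    have : m + C + l • (m + l⁻¹ • (P - C) - m) = m + P := by
      rw [add_sub_cancel_left, smul_smul, mul_inv_cancel₀ hl.ne', one_smul]
      ring
    rwa [this]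
  rcases le_total (1 + g) (d + l) with h | h
  · left
    have hdl : 0 < d + l := by linarith
    refine mem_of_comb ha hma hP hz (r := g / (d + l)) (s := 1 / (d + l))
      (div_nonneg hg hdl.le) (div_nonneg zero_le_one hdl.le) ?_ ?_
    · rw [← add_div, div_le_one hdl]; linarith
    · have h1 : m + P - m = P := by ring
      have h2 : m + C + l • Q - m = C + l • Q := by ring
      rw [h1, h2, hC]
      have h3 : (g / (d + l)) • P + (1 / (d + l)) • (-(g • P) + d • Q + l • Q) = Q := by
        have h4 : (-(g • P) + d • Q + l • Q) = -(g • P) + (d + l) • Q := by module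
        rw [h4, smul_add, smul_neg, smul_smul, smul_smul]
        rw [one_div_mul_cancel hdl.ne', one_smul]
        rw [show 1 / (d + l) * g = g / (d + l) by ring]
        abel
      rw [add_assoc, h3]
  · right
    have hg1 : 0 < 1 + g := by linarith
    refine mem_of_comb hb hmb hQ hy (r := d / (1 + g)) (s := l / (1 + g))
      (div_nonneg hd hg1.le) (div_nonneg hl.le hg1.le) ?_ ?_
    · rw [← add_div, div_le_one hg1]; linarith
    · have h1 : m + Q - m = Q := by ring
      have h2 : m + l⁻¹ • (P - C) - m = l⁻¹ • (P - C) := by ring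
      rw [h1, h2, hC]
      have h3 : (d / (1 + g)) • Q + (l / (1 + g)) • l⁻¹ • (P - (-(g • P) + d • Q)) = P := by
        have h4 : P - (-(g • P) + d • Q) = (1 + g) • P - d • Q := by module
        rw [h4, smul_smul, smul_sub, smul_smul, smul_smul]
        rw [show l / (1 + g) * l⁻¹ * (1 + g) = 1 by field_simp, one_smul,
          show l / (1 + g) * l⁻¹ * d = d / (1 + g) by field_simp]
        abel
      rw [add_assoc, h3]

/-- two points on the same side of `m` -/
lemma same_side {a b : Set ℂ} (ha : Convex ℝ a) (hb : Convex ℝ b) {m U : ℂ} {p q : ℝ}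
    (hma : m ∈ a) (hmb : m ∈ b) (hp : 0 ≤ p) (hq : 0 ≤ q) (hP : m + p • U ∈ a)
    (hQ : m + q • U ∈ b) : m + q • U ∈ a ∨ m + p • U ∈ b := by
  rcases le_total q p with h | h
  · left
    rcases eq_or_lt_of_le hp with h0 | h0
    · have : q = 0 := by linarith
      simpa [this] using hma
    · refine mem_of_comb ha hma hP hma (r := q / p) (s := 0) (div_nonneg hq hp) le_rfl
        (by rw [add_zero, div_le_one h0]; exact h) ?_
      rw [add_sub_cancel_left, smul_smul, div_mul_cancel₀ _ h0.ne']
      simp
  · right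
    rcases eq_or_lt_of_le hq with h0 | h0
    · have : p = 0 := by linarith
      simpa [this] using hmb
    · refine mem_of_comb hb hmb hQ hmb (r := p / q) (s := 0) (div_nonneg hp hq) le_rfl
        (by rw [add_zero, div_le_one h0]; exact h) ?_
      rw [add_sub_cancel_left, smul_smul, div_mul_cancel₀ _ h0.ne']
      simp

lemma seg_cross {a b : Set ℂ} (ha : Convex ℝ a) (hb : Convex ℝ b) {l : ℝ} {c : ℂ} (hl : 0 < l)
    (hab : ∀ v, v ∈ b ↔ c + l • v ∈ a) {x y z w : ℂ} (hx : x ∈ a) (hy : y ∈ a) (hz : z ∈ b)
    (hw : w ∈ b) (hn : ¬ Disjoint (segment ℝ x y) (segment ℝ z w)) :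
    x ∈ b ∨ y ∈ b ∨ z ∈ a ∨ w ∈ a := by
  rw [not_disjoint_iff] at hn
  obtain ⟨m, hm1, hm2⟩ := hn
  have hma : m ∈ a := ha.segment_subset hx hy hm1
  have hmb : m ∈ b := hb.segment_subset hz hw hm2
  rw [segment_eq_image'] at hm1 hm2
  obtain ⟨t, ⟨ht0, ht1⟩, et⟩ := hm1
  obtain ⟨s, ⟨hs0, hs1⟩, es⟩ := hm2
  simp only at et es
  rcases eq_or_lt_of_le ht0 with h | ht0
  · left
    rw [← h, zero_smul, add_zero] at et
    rwa [et]
  rcases eq_or_lt_of_le ht1 with h | ht1
  · right; left
    rw [h, one_smul, add_sub_cancel] at et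
    rwa [et]
  rcases eq_or_lt_of_le hs0 with h | hs0
  · right; right; left
    rw [← h, zero_smul, add_zero] at es
    rwa [es]
  rcases eq_or_lt_of_le hs1 with h | hs1
  · right; right; right
    rw [h, one_smul, add_sub_cancel] at es
    rwa [es]
  obtain ⟨U, hU⟩ : ∃ U, U = y - x := ⟨_, rfl⟩
  obtain ⟨V, hV⟩ : ∃ V, V = w - z := ⟨_, rfl⟩
  obtain ⟨C, hC⟩ : ∃ C, C = c + l • m - m := ⟨_, rfl⟩
  have ex : x = m + (-t) • U := by rw [← et, hU]; module
  have ey : y = m + (1 - t) • U := by rw [← et, hU]; module
  have ez : z = m + (-s) • V := by rw [← es, hV]; module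
  have ew : w = m + (1 - s) • V := by rw [← es, hV]; module
  have hab' : ∀ v, v ∈ b ↔ m + C + l • (v - m) ∈ a := by
    intro v
    rw [hab v, hC]
    have : m + (c + l • m - m) + l • (v - m) = c + l • v := by module
    rw [this]
  have hX : m + (-t) • U ∈ a := by rwa [← ex]
  have hY : m + (1 - t) • U ∈ a := by rwa [← ey]
  have hZ : m + (-s) • V ∈ b := by rwa [← ez]
  have hW : m + (1 - s) • V ∈ b := by rwa [← ew]
  rw [ex, ey, ez, ew]
  by_cases hD : U.re * V.im - U.im * V.re = 0
  · by_cases hU0 : U = 0
    · left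
      rw [hU0]
      simpa using hmb
    obtain ⟨k, hk⟩ : ∃ k : ℝ, V = k • U := by
      have h0 : U.re ^ 2 + U.im ^ 2 ≠ 0 := by
        intro h
        apply hU0
        apply Complex.ext
        · simp only [Complex.zero_re]; nlinarith [sq_nonneg U.re, sq_nonneg U.im]
        · simp only [Complex.zero_im]; nlinarith [sq_nonneg U.re, sq_nonneg U.im]
      refine ⟨(U.re * V.re + U.im * V.im) / (U.re ^ 2 + U.im ^ 2), ?_⟩
      apply Complex.ext
      · rw [Complex.real_smul, Complex.re_ofReal_mul]
        field_simp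
        linear_combination (-U.im) * hD
      · rw [Complex.real_smul, Complex.im_ofReal_mul]
        field_simp
        linear_combination (U.re) * hD
    rcases le_total 0 k with hk0 | hk0
    · rw [hk, smul_smul] at hW
      rcases same_side ha hb hma hmb (by linarith) (mul_nonneg (by linarith) hk0) hY hW with h | h
      · rw [← smul_smul, ← hk] at h
        exact Or.inr (Or.inr (Or.inr h))
      · exact Or.inr (Or.inl h)
    · rw [hk, smul_smul] at hZ
      rcases same_side ha hb hma hmb (by linarith) (by nlinarith) hY hZ with h | h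
      · rw [← smul_smul, ← hk] at h
        exact Or.inr (Or.inr (Or.inl h))
      · exact Or.inr (Or.inl h)
  · obtain ⟨α, β, hαβ⟩ : ∃ α β : ℝ, C = α • U + β • V := by
      refine ⟨(C.re * V.im - C.im * V.re) / (U.re * V.im - U.im * V.re),
        (U.re * C.im - U.im * C.re) / (U.re * V.im - U.im * V.re), ?_⟩
      apply Complex.ext
      · rw [Complex.add_re, Complex.real_smul, Complex.re_ofReal_mul, Complex.real_smul,
          Complex.re_ofReal_mul, div_mul_eq_mul_div, div_mul_eq_mul_div, ← add_div, eq_div_iff hD]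
        ring
      · rw [Complex.add_im, Complex.real_smul, Complex.im_ofReal_mul, Complex.real_smul,
          Complex.im_ofReal_mul, div_mul_eq_mul_div, div_mul_eq_mul_div, ← add_div, eq_div_iff hD]
        ring
    have h1t : 0 < 1 - t := by linarith
    have h1s : 0 < 1 - s := by linarith
    rcases le_total α 0 with h | h <;> rcases le_total 0 β with h' | h'
    · rcases core ha hb hl (g := -α / (1 - t)) (d := β / (1 - s))
        (div_nonneg (by linarith) h1t.le) (div_nonneg h' h1s.le) hab' hma hmb hY hW (by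
          rw [hαβ, smul_smul, smul_smul, div_mul_cancel₀ _ h1t.ne', div_mul_cancel₀ _ h1s.ne']
          module) with h2 | h2
      · exact Or.inr (Or.inr (Or.inr h2))
      · exact Or.inr (Or.inl h2)
    · rcases core ha hb hl (g := -α / (1 - t)) (d := -β / s)
        (div_nonneg (by linarith) h1t.le) (div_nonneg (by linarith) hs0.le) hab' hma hmb hY hZ (by
          rw [hαβ, smul_smul, smul_smul, div_mul_cancel₀ _ h1t.ne',
            show -β / s * -s = β by field_simp]
          module) with h2 | h2
      · exact Or.inr (Or.inr (Or.inl h2))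
      · exact Or.inr (Or.inl h2)
    · rcases core ha hb hl (g := α / t) (d := β / (1 - s))
        (div_nonneg h ht0.le) (div_nonneg h' h1s.le) hab' hma hmb hX hW (by
          rw [hαβ, smul_smul, smul_smul, div_mul_cancel₀ _ h1s.ne',
            show α / t * -t = -α by field_simp]
          module) with h2 | h2
      · exact Or.inr (Or.inr (Or.inr h2))
      · exact Or.inl h2
    · rcases core ha hb hl (g := α / t) (d := -β / s)
        (div_nonneg h ht0.le) (div_nonneg (by linarith) hs0.le) hab' hma hmb hX hZ (by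
          rw [hαβ, smul_smul, smul_smul, show α / t * -t = -α by field_simp,
            show -β / s * -s = β by field_simp]
          module) with h2 | h2
      · exact Or.inr (Or.inr (Or.inl h2))
      · exact Or.inl h2

lemma segNonCross_of_homothetic {a b : Set ℂ} (ha : Convex ℝ a) (hb : Convex ℝ b)
    (h : Homothetic b a) : SegNonCross a b := by
  obtain ⟨l, c, hl, e⟩ := h
  intro x hx y hy z hz w hw
  by_contra hn
  have hab : ∀ v, v ∈ b ↔ c + l • v ∈ a := by
    intro v
    rw [e]
    constructor
    · intro hv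
      exact ⟨v, hv, rfl⟩
    · rintro ⟨u, hu, e1⟩
      simp only at e1
      have h1 : l • u = l • v := add_left_cancel e1
      have h2 : u = v := smul_right_injective ℂ hl.ne' h1
      rwa [← h2]
  rcases seg_cross ha hb hl hab hx.1 hy.1 hz.1 hw.1 hn with h | h | h | h
  · exact hx.2 h
  · exact hy.2 h
  · exact hz.2 h
  · exact hw.2 h

lemma holeFree_of_convex {a : Set ℂ} (h : Convex ℝ a) (h0 : a.Nonempty) : HoleFree a := by
  obtain ⟨x, hx⟩ := h0
  have : ContractibleSpace a := (h.starConvex hx).contractibleSpace ⟨x, hx⟩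
  exact Or.inr (inferInstanceAs (SimplyConnectedSpace a))

lemma convex_diff_half {a b : Set ℂ} (ha : Convex ℝ a) (hb : IsHalfPlane b) :
    Convex ℝ (a \ b) := by
  obtain ⟨f, c, rfl | rfl⟩ := hb
  · have : a \ {z | c ≤ f z} = a ∩ {z | f z < c} := by
      ext z; simp
    rw [this]
    exact ha.inter (convex_halfSpace_lt f.isLinear c)
  · have : a \ {z | c < f z} = a ∩ {z | f z ≤ c} := by
      ext z; simp
    rw [this]
    exact ha.inter (convex_halfSpace_le f.isLinear c)

/-- Families of convex sets of the plane, any two of which that meet are homothetic to each other,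
or do not cross, or of which one is a half-plane, are families of pseudo-discs. -/
theorem isCoPseudo_of_convex {V : Type} (G : SimpleGraph V) (S : V → Set ℂ)
    (hc : ∀ v, Convex ℝ (S v))
    (h : ∀ u v, u ≠ v → (S u ∩ S v).Nonempty →
      IsHalfPlane (S u) ∨ IsHalfPlane (S v) ∨ Homothetic (S u) (S v) ∨ SegNonCross (S u) (S v))
    (hG : ∀ u v, u ≠ v → (G.Adj u v ↔ Disjoint (S u) (S v))) : IsCoPseudo G := by
  refine ⟨S, fun v => jo_of_convex (hc v), fun u v huv hn => ?_, hG⟩
  have h1 : HoleFree (S u) := holeFree_of_convex (hc u) (hn.mono inter_subset_left)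
  have h2 : HoleFree (S v) := holeFree_of_convex (hc v) (hn.mono inter_subset_right)
  rcases h u v huv hn with h | h | h | h
  · exact Or.inr (Or.inr (Or.inl ⟨h2, jo_of_convex (convex_diff_half (hc v) h)⟩))
  · exact Or.inr (Or.inl ⟨h1, jo_of_convex (convex_diff_half (hc u) h)⟩)
  · refine Or.inr (Or.inr (Or.inr ⟨h1, h2, nonCross_of_convex (hc u) (hc v) ?_⟩))
    intro x hx y hy z hz w hw
    exact (segNonCross_of_homothetic (hc v) (hc u) h z hz w hw x hx y hy).symm
  · exact Or.inr (Or.inr (Or.inr ⟨h1, h2, nonCross_of_convex (hc u) (hc v) h⟩))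

/-- Disjointness graphs of homothetic copies `p v + r v K`, `r v > 0`, of one convex set `K` of the
plane (closed or not, bounded or not) and of half-planes are disjointness graphs of
pseudo-discs. -/
theorem isCoPseudo_of_homothets {V : Type} (G : SimpleGraph V) (K : Set ℂ) (hK : Convex ℝ K)
    (S : V → Set ℂ)
    (hS : ∀ v, IsHalfPlane (S v) ∨ ∃ (p : ℂ) (r : ℝ), 0 < r ∧ S v = (fun z => p + r • z) '' K)
    (hG : ∀ u v, u ≠ v → (G.Adj u v ↔ Disjoint (S u) (S v))) : IsCoPseudo G := by
  have hc : ∀ v, Convex ℝ (S v) := by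
    intro v
    rcases hS v with ⟨f, c, h | h⟩ | ⟨p, r, -, h⟩
    · rw [h]
      exact convex_halfSpace_ge f.isLinear c
    · rw [h]
      exact convex_halfSpace_gt f.isLinear c
    · have : (fun z : ℂ => p + r • z) '' K = (fun z => p + z) '' (r • K) := by
        rw [← image_smul, image_image]
      rw [h, this]
      exact (hK.smul r).translate p
  refine isCoPseudo_of_convex G S hc (fun u v _ _ => ?_) hG
  rcases hS u with hu | ⟨p, r, hr, hu⟩
  · exact Or.inl hu
  rcases hS v with hv | ⟨q, s, hs, hv⟩
  · exact Or.inr (Or.inl hv)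
  refine Or.inr (Or.inr (Or.inl ⟨s / r, q - (s / r) • p, div_pos hs hr, ?_⟩))
  rw [hu, hv, image_image]
  congr 1
  ext z
  have : (s / r) • (r • z) = s • z := by
    rw [smul_smul, div_mul_cancel₀ _ hr.ne']
  rw [smul_add, this]
  ring

end Vale.Agent.P305.H752
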